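import Mathlib

/-! # P246, row B: Bass' stable range theorem for algebras which are finite over a noetherian
ring of finite dimension in their centre -/

open Submodule

namespace Vale.Agent.P246.H392

/-- Bass' stable range condition (for right unimodular rows). -/
def SR (R : Type) [Ring R] (n : ℕ) : Prop :=
  ∀ (y : Fin n → R) (a : R), (∃ (b : Fin n → R) (c : R), ∑ i, y i * b i + a * c = 1) →
    ∃ t v : Fin n → R, ∑ i, (y i + a * t i) * v i = 1

section gen

variable {A X : Type} [CommRing A] [AddCommGroup X] [Module A X]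

/-- the localisation at `p` of `X / J` is generated by `k` elements -/
def G (J : Submodule A X) (p : Ideal A) (k : ℕ) : Prop :=
  ∃ f : A, f ∉ p ∧ ∃ s : Finset X, s.card ≤ k ∧ ∀ x : X, f • x ∈ span A (s : Set X) ⊔ J

/-- the class of `a` in the fibre of `X / J` at `p` vanishes -/
def Z (J : Submodule A X) (a : X) (p : Ideal A) : Prop :=
  ∃ f : A, f ∉ p ∧ f • a ∈ p • (⊤ : Submodule A X) ⊔ J

theorem G.mono {J J' : Submodule A X} {p q : Ideal A} {k l : ℕ} (h : G J p k) (hJ : J ≤ J')
    (hp : q ≤ p) (hk : k ≤ l) : G J' q l := by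
  obtain ⟨f, hf, s, hs, hx⟩ := h
  exact ⟨f, fun h => hf (hp h), s, hs.trans hk, fun x => (sup_le_sup_left hJ _) (hx x)⟩

theorem Z.mono {J J' : Submodule A X} {a : X} {p : Ideal A} (h : Z J a p) (hJ : J ≤ J') :
    Z J' a p := by
  obtain ⟨f, hf, hx⟩ := h
  exact ⟨f, hf, (sup_le_sup_left hJ _) hx⟩

theorem G.zero {J : Submodule A X} {p : Ideal A} (h : G J p 0) (a : X) : Z J a p := by
  obtain ⟨f, hf, s, hs, hx⟩ := h
  have hs' : s = ∅ := Finset.card_eq_zero.1 (Nat.le_zero.1 hs)
  subst hs'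
  refine ⟨f, hf, ?_⟩
  have := hx a
  simp only [Finset.coe_empty, span_empty, bot_sup_eq] at this
  exact mem_sup_right this

/-- L1 -/
theorem G.pred {J : Submodule A X} {p : Ideal A} (hp : p.IsPrime) {y : X} {k : ℕ}
    (h : G J p (k + 1)) (hy : ¬ Z J y p) : G (J ⊔ span A {y}) p k := by
  classical
  obtain ⟨f, hf, s, hs, hx⟩ := h
  obtain ⟨u, hu, j, hj, huj⟩ := mem_sup.1 (hx y)
  obtain ⟨c, -, hc⟩ := mem_span_finset.1 hu
  obtain ⟨m, hm, hcm⟩ : ∃ m ∈ s, c m ∉ p := by
    by_contra hcon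
    push Not at hcon
    refine hy ⟨f, hf, ?_⟩
    rw [← huj]
    refine mem_sup.2 ⟨u, ?_, j, hj, rfl⟩
    rw [← hc]
    exact sum_mem fun m hm => smul_mem_smul (hcon m hm) trivial
  set W : Submodule A X := span A ((s.erase m : Finset X) : Set X) ⊔ (J ⊔ span A {y}) with hW
  have hJW : J ≤ W := le_sup_left.trans le_sup_right
  have hyW : y ∈ W := mem_sup_right (mem_sup_right (mem_span_singleton_self y))
  have hsW : ∀ m' ∈ s, m' ≠ m → m' ∈ W := fun m' hm' hne =>
    mem_sup_left (subset_span (by simp [hm', hne]))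
  have hmW : c m • m ∈ W := by
    have e1 : c m • m = f • y - j - ∑ x ∈ s.erase m, c x • x := by
      rw [← huj, ← hc, ← Finset.add_sum_erase s (fun x => c x • x) hm]
      abel
    rw [e1]
    refine sub_mem (sub_mem (smul_mem _ _ hyW) (hJW hj)) (sum_mem fun x hx' => ?_)
    exact smul_mem _ _ (hsW x (Finset.mem_of_mem_erase hx') (Finset.ne_of_mem_erase hx'))
  have hspan : ∀ z ∈ span A (s : Set X), c m • z ∈ W := by
    intro z hz
    obtain ⟨d, -, hd⟩ := mem_span_finset.1 hz
    rw [← hd, Finset.smul_sum]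
    refine sum_mem fun x hx' => ?_
    rw [smul_comm]
    by_cases hxm : x = m
    · rw [hxm]; exact smul_mem _ _ hmW
    · exact smul_mem _ _ (smul_mem _ _ (hsW x hx' hxm))
  refine ⟨c m * f, fun h => (hp.mem_or_mem h).elim hcm hf, s.erase m, ?_, fun x => ?_⟩
  · rw [Finset.card_erase_of_mem hm]; omega
  · obtain ⟨u', hu', j', hj', huj'⟩ := mem_sup.1 (hx x)
    rw [mul_smul, ← huj', smul_add]
    exact add_mem (hspan _ hu') (smul_mem _ _ (hJW hj'))

/-- L2 -/
theorem G.lift {J : Submodule A X} {q : Ideal A} (hq : q.IsPrime) {a : X} {k : ℕ}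
    (hZ : Z J a q) (h : G (J ⊔ span A {a}) q k) : G J q k := by
  obtain ⟨f, hf, hfa⟩ := hZ
  obtain ⟨g, hg, s, hs, hx⟩ := h
  set N : Submodule A X := span A (s : Set X) ⊔ J with hN
  have hx' : ∀ x, ∃ n ∈ N, ∃ c : A, n + c • a = g • x := by
    intro x
    have h1 : g • x ∈ N ⊔ span A {a} := by rw [hN, sup_assoc]; exact hx x
    obtain ⟨n, hn, w, hw, hnw⟩ := mem_sup.1 h1
    obtain ⟨c, hc⟩ := mem_span_singleton.1 hw
    exact ⟨n, hn, c, by rw [hc, hnw]⟩
  have hz : ∀ z ∈ q • (⊤ : Submodule A X), ∃ n ∈ N, ∃ c ∈ q, n + c • a = g • z := by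
    intro z hz
    refine Submodule.smul_induction_on hz ?_ ?_
    · intro r hr x _
      obtain ⟨n, hn, c, hc⟩ := hx' x
      refine ⟨r • n, smul_mem _ _ hn, r * c, q.mul_mem_right _ hr, ?_⟩
      rw [mul_smul, ← smul_add, hc, smul_comm]
    · rintro x y ⟨n, hn, c, hc, h1⟩ ⟨n', hn', c', hc', h2⟩
      refine ⟨n + n', add_mem hn hn', c + c', add_mem hc hc', ?_⟩
      rw [smul_add, ← h1, ← h2, add_smul]
      abel
  obtain ⟨z, hzm, j, hj, hzj⟩ := mem_sup.1 hfa
  obtain ⟨n, hn, c, hc, hnc⟩ := hz z hzm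
  have hkey : (g * f - c) • a ∈ N := by
    have e1 : (g * f - c) • a = n + g • j := by
      rw [sub_smul, mul_smul, ← hzj, smul_add, ← hnc]
      abel
    rw [e1]
    exact add_mem hn (mem_sup_right (smul_mem _ _ hj))
  refine ⟨(g * f - c) * g, fun h => ?_, s, hs, fun x => ?_⟩
  · rcases hq.mem_or_mem h with h | h
    · have : g * f ∈ q := by
        have := add_mem h hc
        rwa [sub_add_cancel] at this
      exact (hq.mem_or_mem this).elim hg hf
    · exact hg h
  · obtain ⟨n', hn', c', hc'⟩ := hx' x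
    rw [mul_smul, ← hc', smul_add, smul_comm _ c']
    exact add_mem (smul_mem _ _ hn') (smul_mem _ _ hkey)

/-- avoidance -/
theorem avoid {J : Submodule A X} (y a : X) (S : Finset (Ideal A)) :
    (∀ p ∈ S, p.IsPrime) → (∀ p ∈ S, ¬ Z J a p) → ∃ t : A, ∀ p ∈ S, ¬ Z J (y + t • a) p := by
  classical
  induction S using Finset.strongInduction with
  | H S ih =>
    intro hS ha
    rcases S.eq_empty_or_nonempty with rfl | hne
    · exact ⟨0, by simp⟩
    obtain ⟨p, hpS, hpmin⟩ := S.exists_minimal hne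
    obtain ⟨t, ht⟩ := ih (S.erase p) (Finset.erase_ssubset hpS)
      (fun q hq => hS q (Finset.mem_of_mem_erase hq)) (fun q hq => ha q (Finset.mem_of_mem_erase hq))
    by_cases hZ : Z J (y + t • a) p
    · have hu : ∀ q : Ideal A, ∃ u : A, q ∈ S.erase p → u ∈ q ∧ u ∉ p := by
        intro q
        by_cases hq : q ∈ S.erase p
        · have h1 : ¬ q ≤ p := fun hle =>
            Finset.ne_of_mem_erase hq (le_antisymm hle (hpmin (Finset.mem_of_mem_erase hq) hle))
          obtain ⟨u, hu, hup⟩ := SetLike.not_le_iff_exists.1 h1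
          exact ⟨u, fun _ => ⟨hu, hup⟩⟩
        · exact ⟨0, fun h => absurd h hq⟩
      choose u hu using hu
      have hpp : p.IsPrime := hS p hpS
      have hU1 : ∏ q ∈ S.erase p, u q ∉ p := by
        rw [Ideal.IsPrime.prod_mem_iff]
        rintro ⟨q, hq, hq'⟩
        exact (hu q hq).2 hq'
      have hU2 : ∀ q ∈ S.erase p, ∏ q ∈ S.erase p, u q ∈ q := fun q hq =>
        Ideal.mem_of_dvd _ (Finset.dvd_prod_of_mem u hq) (hu q hq).1
      refine ⟨t + ∏ q ∈ S.erase p, u q, fun q hq => ?_⟩
      by_cases hqp : q = p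
      · subst hqp
        rintro ⟨f', hf', h1⟩
        obtain ⟨f, hf, h2⟩ := hZ
        refine ha q hq ⟨f' * f * ∏ q ∈ S.erase q, u q, fun h => ?_, ?_⟩
        · rcases hpp.mem_or_mem h with h | h
          · exact (hpp.mem_or_mem h).elim hf' hf
          · exact hU1 h
        · have e1 : (f' * f * ∏ q ∈ S.erase q, u q) • a =
              f • (f' • (y + (t + ∏ q ∈ S.erase q, u q) • a)) - f' • (f • (y + t • a)) := by
            simp only [smul_add, add_smul, smul_smul]
            rw [show f * f' = f' * f from mul_comm _ _, show f * (f' * t) = f' * (f * t) by ring,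
              show f * (f' * ∏ q ∈ S.erase q, u q) = f' * f * ∏ q ∈ S.erase q, u q by ring]
            abel
          rw [e1]
          exact sub_mem (smul_mem _ _ h1) (smul_mem _ _ h2)
      · have hqe : q ∈ S.erase p := Finset.mem_erase.2 ⟨hqp, hq⟩
        rintro ⟨f, hf, h1⟩
        refine ht q hqe ⟨f, hf, ?_⟩
        have e1 : f • (y + t • a) = f • (y + (t + ∏ q ∈ S.erase p, u q) • a) -
            (∏ q ∈ S.erase p, u q) • (f • a) := by
          simp only [smul_add, add_smul, smul_smul]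
          rw [show (∏ q ∈ S.erase p, u q) * f = f * ∏ q ∈ S.erase p, u q from mul_comm _ _]
          abel
        rw [e1]
        exact sub_mem h1 (mem_sup_left (smul_mem_smul (hU2 q hqe) trivial))
    · refine ⟨t, fun q hq => ?_⟩
      by_cases hqp : q = p
      · rw [hqp]; exact hZ
      · exact ht q (Finset.mem_erase.2 ⟨hqp, hq⟩)

/-- the invariant -/
def Inv (m : ℕ) (a : X) (i : ℕ) (J : Submodule A X) : Prop :=
  ∀ p : Ideal A, p.IsPrime → ¬ Z J a p → ∃ k, G J p k ∧ k + i ≤ m * (1 + p.height.toNat)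

theorem step [IsNoetherianRing A] {m d : ℕ} (hd : ∀ p : Ideal A, p.IsPrime → p.height ≤ d)
    (hm : ∀ (J : Submodule A X) (p : Ideal A), p.IsPrime → G J p m) {a : X} {i : ℕ}
    {J : Submodule A X} (hI : Inv m a i J) (y : X) :
    ∃ t : A, ∀ J' : Submodule A X, J ⊔ span A {y + t • a} ≤ J' → Inv m a (i + 1) J' := by
  classical
  -- critical primes
  set C : Set (Ideal A) := {p | p.IsPrime ∧ ¬ Z J a p ∧
    ¬ ∃ k, G J p k ∧ k + (i + 1) ≤ m * (1 + p.height.toNat)} with hC
  set I : ℕ → Ideal A := fun k => Ideal.span {f : A | ∃ s : Finset X, s.card ≤ k ∧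
    ∀ x : X, f • x ∈ span A (s : Set X) ⊔ J} with hIdef
  have hG : ∀ (p : Ideal A) (k : ℕ), ¬ G J p k ↔ I k ≤ p := by
    intro p k
    rw [hIdef]
    simp only
    rw [Ideal.span_le]
    constructor
    · intro h f hf
      by_contra hfp
      exact h ⟨f, hfp, hf⟩
    · rintro h ⟨f, hf, hs⟩
      exact hf (h hs)
  have hfin : C.Finite := by
    refine Set.Finite.subset (s := ⋃ k ∈ Finset.range m, (I k).minimalPrimes) ?_ ?_
    · exact Set.Finite.biUnion (Finset.finite_toSet _) fun k _ =>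
        Ideal.finite_minimalPrimes_of_isNoetherianRing A (I k)
    · rintro p ⟨hp, hZ, hno⟩
      obtain ⟨k, hk, hki⟩ := hI p hp hZ
      have hk0 : k ≠ 0 := by
        rintro rfl
        exact hZ (hk.zero a)
      obtain ⟨k, rfl⟩ := Nat.exists_eq_succ_of_ne_zero hk0
      have hnot : ¬ G J p k := fun h => hno ⟨k, h, by omega⟩
      have hkeq : m * (1 + p.height.toNat) < k.succ + (i + 1) := by
        by_contra hcon
        exact hno ⟨k.succ, hk, by omega⟩
      have hkm : k < m := by
        by_contra hcon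
        exact hnot ((hm J p hp).mono le_rfl le_rfl (by omega))
      refine Set.mem_biUnion (x := k) (by simpa using hkm) ?_
      refine ⟨⟨hp, (hG p k).1 hnot⟩, ?_⟩
      rintro q ⟨hq, hqI⟩ hqp
      by_contra hpq
      have hlt : q < p := lt_of_le_not_ge hqp hpq
      have hht : q.height.toNat + 1 ≤ p.height.toNat := by
        have h1 := Ideal.height_add_one_le_of_lt_of_isPrime (I := q) (J := p) hlt
        have h2 := hd p hp
        have h3 := hd q hq
        have h4 : p.height ≠ ⊤ := ne_top_of_le_ne_top (ENat.natCast_ne_top d) h2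
        have h5 : q.height ≠ ⊤ := ne_top_of_le_ne_top (ENat.natCast_ne_top d) h3
        rw [← ENat.natCast_toNat h4, ← ENat.natCast_toNat h5] at h1
        exact_mod_cast h1
      have hqk : ¬ G J q k := (hG q k).2 hqI
      have hZq : Z J a q := by
        by_contra hZq
        obtain ⟨k', hk', hk'i⟩ := hI q hq hZq
        refine hqk (hk'.mono le_rfl le_rfl ?_)
        have h6 : m * (1 + q.height.toNat) + m ≤ m * (1 + p.height.toNat) := by nlinarith
        omega
      exact hqk (G.lift hq hZq ((hk.pred hp hZ).mono le_rfl hqp le_rfl))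
  obtain ⟨t, ht⟩ := avoid (J := J) y a hfin.toFinset (fun p hp => ((hfin.mem_toFinset).1 hp).1)
    (fun p hp => ((hfin.mem_toFinset).1 hp).2.1)
  refine ⟨t, fun J' hJ' p hp hZ' => ?_⟩
  have hZ : ¬ Z J a p := fun h => hZ' (h.mono (le_sup_left.trans hJ'))
  by_cases hpC : p ∈ C
  · obtain ⟨k, hk, hki⟩ := hI p hp hZ
    have hk0 : k ≠ 0 := by
      rintro rfl
      exact hZ (hk.zero a)
    obtain ⟨k, rfl⟩ := Nat.exists_eq_succ_of_ne_zero hk0
    exact ⟨k, (hk.pred hp (ht p ((hfin.mem_toFinset).2 hpC))).mono hJ' le_rfl le_rfl, by omega⟩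
  · have h1 : ∃ k, G J p k ∧ k + (i + 1) ≤ m * (1 + p.height.toNat) := by
      by_contra hcon
      exact hpC ⟨hp, hZ, hcon⟩
    obtain ⟨k, hk, hki⟩ := h1
    exact ⟨k, hk.mono (le_sup_left.trans hJ') le_rfl le_rfl, hki⟩

/-- Nakayama -/
theorem nak {J : Submodule A X} {p : Ideal A} (hp : p.IsPrime) (h : ∀ x, Z J x p) :
    ∀ k, G J p k → G J p 0 := by
  classical
  intro k
  induction k with
  | zero => exact id
  | succ k ih =>
    intro hG
    obtain ⟨f, hf, s, hs, hx⟩ := hG
    rcases s.eq_empty_or_nonempty with rfl | ⟨m, hm⟩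
    · exact ⟨f, hf, ∅, by simp, hx⟩
    refine ih (G.lift hp (h m) ⟨f, hf, s.erase m, ?_, fun x => ?_⟩)
    · rw [Finset.card_erase_of_mem hm]; omega
    · refine (sup_le ?_ ?_ : span A (s : Set X) ⊔ J ≤ _) (hx x)
      · rw [span_le]
        intro z hz
        by_cases hzm : z = m
        · rw [hzm]; exact mem_sup_right (mem_sup_right (mem_span_singleton_self m))
        · exact mem_sup_left (subset_span (Finset.mem_coe.2 (Finset.mem_erase.2 ⟨hzm, Finset.mem_coe.1 hz⟩)))
      · exact le_sup_left.trans le_sup_right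

end gen

section ring

variable {A R : Type} [CommRing A] [Ring R] [Algebra A R]

/-- the right ideal generated by `w 0, …, w (i - 1)` -/
def Jr (w : ℕ → R) (i : ℕ) : Submodule A R where
  carrier := {x | ∃ v : ℕ → R, ∑ j ∈ Finset.range i, w j * v j = x}
  add_mem' := by
    rintro _ _ ⟨v, rfl⟩ ⟨v', rfl⟩
    exact ⟨v + v', by simp [mul_add, Finset.sum_add_distrib]⟩
  zero_mem' := ⟨0, by simp⟩
  smul_mem' := by
    rintro c _ ⟨v, rfl⟩
    exact ⟨c • v, by simp [Finset.smul_sum]⟩

theorem mem_Jr {w : ℕ → R} {i : ℕ} {x : R} :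
    x ∈ Jr (A := A) w i ↔ ∃ v : ℕ → R, ∑ j ∈ Finset.range i, w j * v j = x := Iff.rfl

theorem Jr_congr {w w' : ℕ → R} {i : ℕ} (h : ∀ j < i, w j = w' j) :
    Jr (A := A) w i = Jr w' i := by
  ext x
  rw [mem_Jr, mem_Jr]
  constructor
  · rintro ⟨v, rfl⟩
    exact ⟨v, Finset.sum_congr rfl fun j hj => by rw [h j (Finset.mem_range.1 hj)]⟩
  · rintro ⟨v, rfl⟩
    exact ⟨v, Finset.sum_congr rfl fun j hj => by rw [h j (Finset.mem_range.1 hj)]⟩

theorem Jr_succ (w : ℕ → R) (i : ℕ) : Jr (A := A) w i ⊔ span A {w i} ≤ Jr w (i + 1) := by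
  refine sup_le ?_ ?_
  · rintro _ ⟨v, rfl⟩
    refine ⟨Function.update v i 0, ?_⟩
    rw [Finset.sum_range_succ]
    simp only [Function.update_self, mul_zero, add_zero]
    exact Finset.sum_congr rfl fun j hj => by
      rw [Function.update_of_ne (Finset.mem_range.1 hj).ne]
  · rw [span_le]
    rintro _ rfl
    refine ⟨Function.update 0 i 1, ?_⟩
    rw [Finset.sum_range_succ]
    simp only [Function.update_self, mul_one]
    rw [Finset.sum_eq_zero, zero_add]
    intro j hj
    rw [Function.update_of_ne (Finset.mem_range.1 hj).ne]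
    simp

theorem Jr_mul {w : ℕ → R} {i : ℕ} {x : R} (hx : x ∈ Jr (A := A) w i) (r : R) :
    x * r ∈ Jr (A := A) w i := by
  obtain ⟨v, rfl⟩ := hx
  exact ⟨fun j => v j * r, by simp [Finset.sum_mul, mul_assoc]⟩

theorem smul_top_mul {p : Ideal A} {x : R} (hx : x ∈ p • (⊤ : Submodule A R)) (r : R) :
    x * r ∈ p • (⊤ : Submodule A R) := by
  refine Submodule.smul_induction_on hx ?_ ?_
  · intro c hc z _
    rw [smul_mul_assoc]
    exact smul_mem_smul hc trivial
  · intro x y hx hy
    rw [add_mul]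
    exact add_mem hx hy

end ring

/-- ROW B: the stable range of an algebra which is finite over a noetherian central subring of
finite dimension. -/
theorem bass (A R : Type) [CommRing A] [IsNoetherianRing A] [Ring R] [Algebra A R]
    [Module.Finite A R] (d : ℕ) (hd : ∀ p : Ideal A, p.IsPrime → p.height ≤ d) :
    ∃ n : ℕ, 1 ≤ n ∧ SR R n := by
  classical
  obtain ⟨s₀, hs₀⟩ := (Module.Finite.fg_top : (⊤ : Submodule A R).FG)
  set m := s₀.card + 1 with hm
  have hG0 : ∀ (J : Submodule A R) (p : Ideal A), p.IsPrime → G J p m := by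
    intro J p hp
    refine ⟨1, fun h => hp.ne_top ((Ideal.eq_top_iff_one _).2 h), s₀, by omega, fun x => ?_⟩
    rw [hs₀]
    exact mem_sup_left trivial
  refine ⟨m * (d + 1), Nat.mul_pos (by omega) (by omega), ?_⟩
  set n := m * (d + 1) with hn
  rintro y a ⟨b, c, hbc⟩
  set y' : ℕ → R := fun j => if h : j < n then y ⟨j, h⟩ else 0 with hy'
  have key : ∀ i ≤ n, ∃ t : ℕ → A, Inv m a i (Jr (A := A) (fun j => y' j + t j • a) i) := by
    intro i
    induction i with
    | zero =>
      intro _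
      refine ⟨0, fun p hp _ => ⟨m, hG0 _ p hp, ?_⟩⟩
      nlinarith
    | succ i ih =>
      intro hi
      obtain ⟨t, ht⟩ := ih (by omega)
      obtain ⟨τ, hτ⟩ := step hd hG0 ht (y' i)
      refine ⟨Function.update t i τ, hτ _ ?_⟩
      have e1 : Jr (A := A) (fun j => y' j + t j • a) i =
          Jr (fun j => y' j + Function.update t i τ j • a) i :=
        Jr_congr fun j hj => by rw [Function.update_of_ne hj.ne]
      have e2 : y' i + τ • a = (fun j => y' j + Function.update t i τ j • a) i := by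
        simp
      rw [e1, e2]
      exact Jr_succ _ i
  obtain ⟨t, ht⟩ := key n le_rfl
  set w : ℕ → R := fun j => y' j + t j • a with hw
  set J : Submodule A R := Jr w n with hJ
  -- the row `(w, a)` is unimodular
  have huni : ∀ x : R, ∃ u ∈ J, ∃ r : R, x = u + a * r := by
    intro x
    refine ⟨∑ j ∈ Finset.range n, w j * ((if h : j < n then b ⟨j, h⟩ else 0) * x), ⟨_, rfl⟩,
      (c - ∑ j ∈ Finset.range n, t j • (if h : j < n then b ⟨j, h⟩ else 0)) * x, ?_⟩
    have e1 : ∑ j ∈ Finset.range n, w j * ((if h : j < n then b ⟨j, h⟩ else 0) * x) =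
        (∑ j : Fin n, y j * b j) * x +
          a * (∑ j ∈ Finset.range n, t j • (if h : j < n then b ⟨j, h⟩ else 0)) * x := by
      rw [Finset.sum_range (fun j => w j * ((if h : j < n then b ⟨j, h⟩ else 0) * x)),
        Finset.sum_range (fun j => t j • (if h : j < n then b ⟨j, h⟩ else 0)),
        Finset.mul_sum, ← add_mul, ← Finset.sum_add_distrib, Finset.sum_mul]
      refine Finset.sum_congr rfl fun j _ => ?_
      simp only [hw, hy', Fin.is_lt, dite_true, Fin.eta]
      rw [← mul_assoc, add_mul, smul_mul_assoc, mul_smul_comm]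
    rw [e1]
    have e2 : (∑ j : Fin n, y j * b j) * x + a * c * x = x := by
      rw [← add_mul, hbc, one_mul]
    calc x = (∑ j : Fin n, y j * b j) * x + a * c * x := e2.symm
      _ = _ := by noncomm_ring
  have hZa : ∀ p : Ideal A, p.IsPrime → Z J a p := by
    intro p hp
    by_contra hZ
    obtain ⟨k, hk, hki⟩ := ht p hp hZ
    have h1 : p.height.toNat ≤ d := by
      have := ENat.toNat_le_toNat (hd p hp) (ENat.natCast_ne_top d)
      simpa using this
    have h2 : m * (1 + p.height.toNat) ≤ n := by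
      rw [hn]; exact Nat.mul_le_mul_left _ (by omega)
    have hk0 : k = 0 := by omega
    subst hk0
    exact hZ (hk.zero a)
  have hZall : ∀ p : Ideal A, p.IsPrime → ∀ x, Z J x p := by
    intro p hp x
    obtain ⟨f, hf, hfa⟩ := hZa p hp
    obtain ⟨z, hz, j, hj, hzj⟩ := mem_sup.1 hfa
    obtain ⟨u, hu, r, hx⟩ := huni x
    refine ⟨f, hf, ?_⟩
    rw [hx, smul_add, ← smul_mul_assoc, ← hzj, add_mul]
    refine add_mem (mem_sup_right (smul_mem _ _ hu)) (add_mem (mem_sup_left ?_) (mem_sup_right ?_))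
    · exact smul_top_mul hz r
    · exact Jr_mul hj r
  -- the colon ideal is everything
  set K : Ideal A := J.colon Set.univ with hK
  have hK1 : K = ⊤ := by
    by_contra hne
    obtain ⟨p, hp, hle⟩ := Ideal.exists_le_maximal K hne
    have hpp := hp.isPrime
    obtain ⟨f, hf, s, hs, hx⟩ := nak hpp (hZall p hpp) m (hG0 J p hpp)
    have hs' : s = ∅ := Finset.card_eq_zero.1 (Nat.le_zero.1 hs)
    subst hs'
    refine hf (hle ?_)
    rw [hK, Submodule.mem_colon]
    intro x _
    have := hx x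
    simpa using this
  have h1 : (1 : R) ∈ J := by
    have h2 : (1 : A) ∈ K := by rw [hK1]; trivial
    rw [hK, Submodule.mem_colon] at h2
    have := h2 1 (Set.mem_univ _)
    rwa [one_smul] at this
  obtain ⟨v, hv⟩ := h1
  refine ⟨fun i => algebraMap A R (t i), fun i => v i, ?_⟩
  rw [← hv, Finset.sum_range (fun j => w j * v j)]
  refine Finset.sum_congr rfl fun j _ => ?_
  simp only [hw, hy', Fin.is_lt, dite_true, Fin.eta]
  rw [← Algebra.commutes, ← Algebra.smul_def]

end Vale.Agent.P246.H392
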