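import Vale.Agent.P246.R2.H429.Defs4
import Vale.Agent.P246.T.MX
import Vale.Agent.P246.T.MS
import Vale.Agent.P246.T.CL
import Vale.Agent.P246.T.FM
import Vale.Agent.P246.T.PR
import Mathlib.Analysis.Normed.Module.Connected

/-! # P246, ROW TW4: two-cells with constant attaching maps give cycles -/

set_option linter.all false

namespace Vale.Agent.P246.R2.H392

open Topology Metric Set Vale.Agent.P246 Vale.Agent.P246.T Vale.Agent.P246.H429

theorem rank_sup {R M : Type} [Ring R] [AddCommGroup M] [Module R M]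
    {P A : Submodule R M} (hPA : P ≤ A) {z : M} (hz : ∀ r : R, r • z ∈ A → r = 0)
    {m : ℕ} (hP : Nonempty (P ≃ₗ[R] (Fin m → R))) :
    Nonempty ((P ⊔ Submodule.span R {z} : Submodule R M) ≃ₗ[R] (Fin (m + 1) → R)) := by
  obtain ⟨u⟩ := hP
  let f : (P × R) →ₗ[R] M := P.subtype.coprod (LinearMap.toSpanSingleton R M z)
  have hf : Function.Injective f := by
    rw [injective_iff_map_eq_zero]
    rintro ⟨x, r⟩ h
    have h1 : (x : M) + r • z = 0 := h
    have hr : r = 0 := hz r (by
      rw [eq_neg_of_add_eq_zero_right h1]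
      exact Submodule.neg_mem _ (hPA x.2))
    subst hr
    rw [zero_smul, add_zero] at h1
    exact Prod.ext (Subtype.ext h1) rfl
  have hrange : LinearMap.range f = P ⊔ Submodule.span R {z} := by
    rw [LinearMap.range_coprod, Submodule.range_subtype, LinearMap.range_toSpanSingleton]
  have e := (LinearEquiv.ofInjective f hf).trans (LinearEquiv.ofEq _ _ hrange)
  exact ⟨e.symm.trans (((LinearEquiv.prodCongr u (LinearEquiv.refl R R)).trans
    (LinearEquiv.prodComm R _ _)).trans (Fin.consLinearEquiv R (fun _ : Fin (m + 1) => R)))⟩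

theorem bdk_conn : IsPreconnected (bdk 2) := by
  have h1 : (1 : Cardinal) < Module.rank ℝ (Fin 2 → ℝ) := by
    rw [rank_fin_fun]
    norm_num
  have h2 : IsPreconnected (sphere (0 : Fin 2 → ℝ) 1) := isPreconnected_sphere h1 0 1
  have h3 : (Subtype.val : Dk 2 → (Fin 2 → ℝ)) '' (bdk 2) = sphere (0 : Fin 2 → ℝ) 1 := by
    ext x
    rw [mem_sphere_zero_iff_norm]
    constructor
    · rintro ⟨y, hy, rfl⟩
      exact hy
    · intro hx
      exact ⟨⟨x, by rw [mem_closedBall_zero_iff, hx]⟩, hx, rfl⟩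
  rw [← h3] at h2
  exact (IsInducing.subtypeVal.isPreconnected_image).1 h2

theorem bdk_ne : (bdk 2).Nonempty := by
  have h : ‖(fun _ => 1 : Fin 2 → ℝ)‖ = 1 := by
    rw [pi_norm_const, norm_one]
  exact ⟨⟨fun _ => 1, by rw [mem_closedBall_zero_iff, h]⟩, h⟩

/-- a map which is constant on the support of the chain -/
theorem push_of_const {M N : Type} [TopologicalSpace M] [TopologicalSpace N] (f : C(M, N))
    {S : Set M} {e : N} (h : ∀ x ∈ S, f x = e) {n : ℕ} {c : Ch n M} (hc : c ∈ Con S n) :
    push f n c = PR.wt n c • ksx n e := by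
  rw [← PR.push_const]
  refine PR.Con_ind (P := fun c => push f n c = push (ContinuousMap.const M e) n c) ?_ ?_ ?_ hc
  · rw [map_zero, map_zero]
  · intro a b ha hb
    rw [map_add, map_add, ha, hb]
  · intro m σ hσ
    rw [push_single, push_single]
    congr 1
    ext x
    exact h _ (hσ x)

section

variable {G W F : Type} [Group G] [TopologicalSpace W] [T2Space W]
  [TopologicalSpace F] [MulAction G F] [ContinuousConstSMul G F] {q : C(F, W)}

theorem aux (hms : SpecMS) (hcl : SpecCL) (hf : SpecFund) (hq : IsQuotientCoveringMap q G)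
    {C B : Set W} {t : ℕ} (hC : IsClosed C) (hB : Sph C B t)
    {P : ∀ n, Submodule (ZG G) (SC G n F)}
    (hP : IsFinModel (fun n => SC G n F) (fun n => SC.d G n F) (Step.SA hq C) P) :
    IsClosed B ∧ ∃ Z : Submodule (ZG G) (SC G 2 F), Nonempty (Z ≃ₗ[ZG G] (Fin t → ZG G)) ∧
      (∀ z ∈ Z, SC.d G 1 F z = 0) ∧ Disjoint (P 2) Z ∧
      IsFinModel (fun n => SC G n F) (fun n => SC.d G n F) (Step.SA hq B)
        (Function.update P 2 (P 2 ⊔ Z)) := by
  induction hB with
  | base =>
    refine ⟨hC, ⊥, ⟨LinearEquiv.ofSubsingleton _ _⟩, ?_, disjoint_bot_right, ?_⟩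
    · intro z hz
      rw [Submodule.mem_bot] at hz
      rw [hz, map_zero]
    · rw [sup_bot_eq, Function.update_eq_self]
      exact hP
  | @cell A B t Φ a hS ha hΦ h ih =>
    obtain ⟨hA, Z, hZ, hZd, hdis, hM⟩ := ih
    refine ⟨?_, ?_⟩
    · rw [h.eq]
      exact hA.union (isCompact_range Φ.continuous).isClosed
    obtain ⟨Ψ, hΨ⟩ := MX.exists_lift hq Φ
    obtain ⟨ζ, hζ⟩ := hf.1 2
    obtain ⟨x0, hx0⟩ := bdk_ne
    -- the lift is constant on the boundary
    have hc : ∀ x ∈ bdk 2, Ψ x = Ψ x0 := by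
      intro x hx
      refine hq.isCoveringMap.constOn_of_comp bdk_conn Ψ.continuous.continuousOn ?_ hx hx0
      intro y hy y' hy'
      rw [hΨ, hΨ, hΦ y hy, hΦ y' hy']
    have he0 : q (Ψ x0) ∈ A := by
      rw [hΨ]
      exact h.bdry x0 hx0
    -- the cycle
    let m : ℤ := PR.wt 1 (bd 1 ζ)
    let z : SC G 2 F := SC.mk G (push Ψ 2 ζ - m • ksx 2 (Ψ x0))
    have hz : z.un - push Ψ 2 ζ ∈ Con (q ⁻¹' A) 2 := by
      change (push Ψ 2 ζ - m • ksx 2 (Ψ x0)) - push Ψ 2 ζ ∈ Con (q ⁻¹' A) 2
      rw [sub_sub_cancel_left]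
      refine Submodule.neg_mem _ (Submodule.smul_mem _ _ ?_)
      exact Finsupp.single_mem_supported ℤ _ fun y => he0
    have hzd : SC.d G 1 F z = 0 := by
      apply SC.un_inj
      change bd 1 (push Ψ 2 ζ - m • ksx 2 (Ψ x0)) = 0
      rw [map_sub, map_smul, push_bd, PR.bd_ksx, push_of_const Ψ hc hζ.cyc]
      rw [if_neg (by decide), one_smul, sub_self]
    have hz' : DRel (fun n => SC G n F) (fun n => SC.d G n F)
        (Function.update P 2 (P 2 ⊔ Z)) 2 z := by
      change SC.d G 1 F z ∈ _
      rw [hzd]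
      exact Submodule.zero_mem _
    obtain ⟨h1, h2⟩ := Step.step hms CC.main2 hcl hq Ψ hA h hΨ hζ hM.toIsModel z hz hz'
    have hu : (Function.update P 2 (P 2 ⊔ Z) : ∀ n, Submodule (ZG G) (SC G n F)) 2 = P 2 ⊔ Z :=
      Function.update_self _ _ _
    have hle : P 2 ⊔ Z ≤ Step.SA hq A 2 := by
      rw [← hu]
      exact hM.le 2
    rw [hu, Function.update_idem, sup_assoc] at h1
    have hfree2 : Module.Free (ZG G) (P 2 ⊔ Z : Submodule (ZG G) (SC G 2 F)) := by
      rw [← hu]
      exact hM.free 2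
    have hfin2 : Module.Finite (ZG G) (P 2 ⊔ Z : Submodule (ZG G) (SC G 2 F)) := by
      rw [← hu]
      exact hM.fin 2
    refine ⟨Z ⊔ Submodule.span (ZG G) {z}, rank_sup (le_sup_right.trans hle) h2 hZ, ?_, ?_,
      { toIsModel := h1, free := fun k => ?_, fin := fun k => ?_, bdd := ?_ }⟩
    · intro x hx
      have hk : Z ⊔ Submodule.span (ZG G) {z} ≤ LinearMap.ker (SC.d G 1 F) := by
        refine sup_le (fun y hy => hZd y hy) ?_
        rw [Submodule.span_singleton_le_iff_mem]
        exact hzd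
      exact hk hx
    · rw [Submodule.disjoint_def]
      intro x hx hx'
      obtain ⟨y, hy, w, hw, rfl⟩ := Submodule.mem_sup.1 hx'
      obtain ⟨r, rfl⟩ := Submodule.mem_span_singleton.1 hw
      have hr : r = 0 := h2 r (by
        have e : r • z = (y + r • z) - y := by abel
        rw [e]
        exact Submodule.sub_mem _ (hle (Submodule.mem_sup_left hx))
          (hle (Submodule.mem_sup_right hy)))
      subst hr
      rw [zero_smul, add_zero] at hx ⊢
      exact (Submodule.disjoint_def.1 hdis) y hx hy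
    · by_cases hk : k = 2
      · subst hk
        rw [Function.update_self, ← sup_assoc]
        exact MX.free_sup hle h2 hfree2
      · rw [Function.update_of_ne hk]
        have := hM.free k
        rw [Function.update_of_ne hk] at this
        exact this
    · by_cases hk : k = 2
      · subst hk
        rw [Function.update_self, ← sup_assoc]
        exact MX.finite_sup z hfin2
      · rw [Function.update_of_ne hk]
        have := hM.fin k
        rw [Function.update_of_ne hk] at this
        exact this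
    · obtain ⟨N, hN⟩ := hP.bdd
      refine ⟨max N 2, fun k hk => ?_⟩
      rw [Function.update_of_ne (by have := le_max_right N 2; omega)]
      exact hN k (lt_of_le_of_lt (le_max_left N 2) hk)

end

/-- ROW TW4 -/
theorem specChW : SpecChW := by
  intro G W F _ _ _ _ _ _ q hq C t hC hS P hP
  obtain ⟨-, Z, hZ, hZd, hdis, hM⟩ :=
    aux MS.main CL.main (FM.main PR.main CC.main1 CL.main) hq hC hS hP
  refine ⟨Z, hZ, hZd, hdis, ?_⟩
  have e : (Step.SA hq univ : ∀ n, Submodule (ZG G) (SC G n F)) = fun _ => ⊤ := by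
    funext n
    rw [eq_top_iff]
    intro x _
    rw [Step.mem_SA, preimage_univ]
    exact PR.Con_univ _
  rw [← e]
  exact hM

end Vale.Agent.P246.R2.H392
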